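import Vale.Agent.P171.Final

namespace Vale.Agent.Results.P171.PhaseTransition

open Vale.Agent.P171

/-- There is a Borel measurable, locally bounded, stable and tempered radial pair potential on
three-dimensional Euclidean space with a phase transition: at some inverse temperature the
pressure is not a differentiable function of the activity. -/
theorem result : ∃ φ : ℝ → ℝ, Measurable φ ∧ LocBounded φ ∧ Stable φ ∧ Tempered φ ∧
    HasPhaseTransition φ :=
  main

end Vale.Agent.Results.P171.PhaseTransition
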