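import Vale.Agent.P171.Regular

namespace Vale.Agent.Results.P171.RegularPotential

open Vale.Agent.P171 MeasureTheory

/-- There is a Borel measurable, bounded, absolutely integrable, stable and tempered radial pair
potential on three-dimensional Euclidean space with a phase transition: at some inverse
temperature the pressure is not a differentiable function of the activity. -/
theorem result : ∃ φ : ℝ → ℝ, Measurable φ ∧ (∃ M : ℝ, ∀ r, |φ r| ≤ M) ∧
    Integrable (fun x : E3 => φ ‖x‖) ∧ LocBounded φ ∧ Stable φ ∧ Tempered φ ∧
    HasPhaseTransition φ :=
  main_regular

end Vale.Agent.Results.P171.RegularPotential
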